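import Crest.Agent.R163.Q3.D.P8G.Par
import Crest.Agent.R163.Q3.D.F8G.F0
import Crest.Agent.R163.Q3.D.F8G.F1
import Crest.Agent.R163.Q3.D.F8G.F2
import Crest.Agent.R163.Q3.D.F8G.F3
import Crest.Agent.R163.Q3.D.F8G.F4
import Crest.Agent.R163.Q3.D.F8G.F5
import Crest.Agent.R163.Q3.D.F8G.F6
import Crest.Agent.R163.Q3.D.F8G.F7
import Crest.Agent.R163.Q3.D.F8G.F8
import Crest.Agent.R163.Q3.D.F8G.F9

set_option autoImplicit false
set_option maxRecDepth 100000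
set_option linter.all false
set_option Elab.async false

namespace Crest.Agent.R163.P8G

abbrev f0 := F8G.f0
theorem hf0 : FitOK par f0 :=
  FitOK.of_list [1,2,3,4,5,6,7] (by decide +kernel) F8G.lf0
abbrev f1 := F8G.f1
theorem hf1 : FitOK par f1 :=
  FitOK.of_list [1,2,3,4,5,6,7] (by decide +kernel) F8G.lf1
abbrev f2 := F8G.f2
theorem hf2 : FitOK par f2 :=
  FitOK.of_list [1,2,3,4,5,6,7] (by decide +kernel) F8G.lf2
abbrev f3 := F8G.f3
theorem hf3 : FitOK par f3 :=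
  FitOK.of_list [1,2,3,4,5,6,7] (by decide +kernel) F8G.lf3
abbrev f4 := F8G.f4
theorem hf4 : FitOK par f4 :=
  FitOK.of_list [1,2,3,4,5,6,7] (by decide +kernel) F8G.lf4
abbrev f5 := F8G.f5
theorem hf5 : FitOK par f5 :=
  FitOK.of_list [1,2,3,4,5,6,7] (by decide +kernel) F8G.lf5
abbrev f6 := F8G.f6
theorem hf6 : FitOK par f6 :=
  FitOK.of_list [1,2,3,4,5,6,7] (by decide +kernel) F8G.lf6
abbrev f7 := F8G.f7
theorem hf7 : FitOK par f7 :=
  FitOK.of_list [1,2,3,4,5,6,7] (by decide +kernel) F8G.lf7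
abbrev f8 := F8G.f8
theorem hf8 : FitOK par f8 :=
  FitOK.of_list [1,2,3,4,5,6,7] (by decide +kernel) F8G.lf8
abbrev f9 := F8G.f9
theorem hf9 : FitOK par f9 :=
  FitOK.of_list [1,2,3,4,5,6,7] (by decide +kernel) F8G.lf9

end Crest.Agent.R163.P8G
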