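import Crest.Agent.R163.Q3.D.P8G.S3

set_option autoImplicit false
set_option maxRecDepth 100000
set_option linter.all false
set_option Elab.async false

namespace Crest.Agent.R163.P8G

theorem c92_1 : stepsOK par ⟨721,23,12,1,9⟩ b92_1 s92_1 a92_1 = true := by decide +kernel

end Crest.Agent.R163.P8G
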